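import Mathlib

/-!
# P097, Case II, row PATCH (helper365)

Finitely many analytic functions `f i` on a connected open set `U`.  We choose a maximal
algebraically independent subfamily `f_B` and, near a generic point, write the others as analytic
functions `φ k` of `f_B`.  Every polynomial relation between the `f i` holds on the whole patch
`{φ x}`, `x` in a ball of `ℂ^B`.
-/

namespace Vale.Agent.P097.H365

open Set Filter Topology Metric MvPolynomial

variable {E : Type*} [NormedAddCommGroup E] [NormedSpace ℂ E]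

/-- functions analytic on `U`, as functions on the subtype -/
def An (U : Set E) : Subalgebra ℂ (U → ℂ) where
  carrier := {g | ∃ F : E → ℂ, AnalyticOnNhd ℂ F U ∧ ∀ u : U, g u = F u}
  mul_mem' := by
    rintro a b ⟨F, hF, h1⟩ ⟨G, hG, h2⟩
    exact ⟨fun x => F x * G x, fun x hx => (hF x hx).mul (hG x hx), fun u => by simp [h1, h2]⟩
  add_mem' := by
    rintro a b ⟨F, hF, h1⟩ ⟨G, hG, h2⟩
    exact ⟨fun x => F x + G x, fun x hx => (hF x hx).add (hG x hx), fun u => by simp [h1, h2]⟩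
  algebraMap_mem' := fun c => ⟨fun _ => c, fun _ _ => analyticAt_const, fun _ => rfl⟩

/-- the element of `An U` given by an analytic function -/
def toAn {U : Set E} (F : E → ℂ) (hF : AnalyticOnNhd ℂ F U) : An U :=
  ⟨fun u => F u, F, hF, fun _ => rfl⟩

/-- evaluation at a point -/
def evA {U : Set E} (u : U) : An U →ₐ[ℂ] ℂ := (Pi.evalAlgHom ℂ (fun _ : U => ℂ) u).comp (An U).val

@[simp] theorem evA_toAn {U : Set E} (F : E → ℂ) (hF : AnalyticOnNhd ℂ F U) (u : U) :
    evA u (toAn F hF) = F u := rfl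

theorem An.ext' {U : Set E} {g h : An U} (H : ∀ u : U, evA u g = evA u h) : g = h :=
  Subtype.ext (funext H)

/-- the identity theorem -/
theorem An.eq_zero {U : Set E} (hc : IsPreconnected U) {g : An U} {u₀ : E} (h0 : u₀ ∈ U)
    (h : ∀ᶠ u in 𝓝 u₀, ∀ hu : u ∈ U, evA ⟨u, hu⟩ g = 0) (hU : IsOpen U) : g = 0 := by
  obtain ⟨g, F, hF, hg⟩ := g
  have h1 : F =ᶠ[𝓝 u₀] 0 := by
    filter_upwards [h, hU.mem_nhds h0] with u hu hu'
    have := hu hu'
    change g ⟨u, hu'⟩ = 0 at this
    rw [hg] at this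
    exact this
  have h2 := hF.eqOn_zero_of_preconnected_of_eventuallyEq_zero hc h0 h1
  refine An.ext' fun u => ?_
  change g u = 0
  rw [hg]
  exact h2 u.2

theorem An.isDomain {U : Set E} (hU : IsOpen U) (hc : IsPreconnected U) (hne : U.Nonempty) :
    IsDomain (An U) := by
  have : Nontrivial (An U) := by
    obtain ⟨u, hu⟩ := hne
    refine ⟨0, 1, fun h => ?_⟩
    have := congrArg (evA ⟨u, hu⟩) h
    simp at this
  have : NoZeroDivisors (An U) := by
    refine ⟨fun {a b} hab => ?_⟩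
    by_contra hcon
    push Not at hcon
    obtain ⟨ha, hb⟩ := hcon
    have h1 : ∃ u : U, evA u a ≠ 0 := by
      by_contra h
      push Not at h
      exact ha (An.ext' fun u => by rw [h u, map_zero])
    obtain ⟨u, hu⟩ := h1
    apply hb
    refine An.eq_zero hc u.2 ?_ hU
    obtain ⟨a, F, hF, ha'⟩ := a
    have h2 : F u ≠ 0 := by
      rw [← ha']
      exact hu
    filter_upwards [(hF u u.2).continuousAt.eventually_ne h2] with v hv hv'
    have h3 := congrArg (evA ⟨v, hv'⟩) hab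
    rw [map_mul, map_zero] at h3
    refine (mul_eq_zero.1 h3).resolve_left ?_
    change a ⟨v, hv'⟩ ≠ 0
    rw [ha']
    exact hv
  exact NoZeroDivisors.to_isDomain _

/-- the functions `f i` satisfy no polynomial relation on `U` -/
def Ind (U : Set E) {ι : Type*} (f : ι → E → ℂ) : Prop :=
  ∀ P : MvPolynomial ι ℂ, (∀ u ∈ U, eval (fun i => f i u) P = 0) → P = 0

theorem evA_aeval {U : Set E} {ι : Type*} (F : ι → An U) (P : MvPolynomial ι ℂ) (u : U) :
    evA u (aeval F P) = eval (fun i => evA u (F i)) P := by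
  have h := MvPolynomial.comp_aeval_apply (f := F) (φ := evA u) P
  rw [h]
  rfl

theorem ind_iff {U : Set E} {ι : Type*} {f : ι → E → ℂ} (hf : ∀ i, AnalyticOnNhd ℂ (f i) U) :
    Ind U f ↔ AlgebraicIndependent ℂ (fun i => toAn (f i) (hf i)) := by
  rw [algebraicIndependent_iff]
  constructor
  · intro h p hp
    refine h p fun u hu => ?_
    have := congrArg (evA ⟨u, hu⟩) hp
    rw [evA_aeval, map_zero] at this
    exact this
  · intro h p hp
    refine h p (An.ext' fun u => ?_)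
    rw [evA_aeval, map_zero]
    exact hp u u.2

/-- a maximal algebraically independent subfamily -/
theorem exists_basis {A : Type*} [CommRing A] [IsDomain A] [Algebra ℂ A] {ι : Type*} [Fintype ι]
    (F : ι → A) (S : Finset ι) (hS : AlgebraicIndependent ℂ (fun i : S => F i)) :
    ∃ B : Finset ι, S ⊆ B ∧ AlgebraicIndependent ℂ (fun i : B => F i) ∧
      ∀ k, ∃ P : Polynomial (MvPolynomial B ℂ), P ≠ 0 ∧
        Polynomial.eval₂ (aeval fun i : B => F i : MvPolynomial B ℂ →ₐ[ℂ] A).toRingHom (F k) P = 0 ∧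
        Polynomial.eval₂ (aeval fun i : B => F i : MvPolynomial B ℂ →ₐ[ℂ] A).toRingHom (F k)
          P.derivative ≠ 0 := by
  classical
  obtain ⟨B, hB, hmax⟩ := Finset.exists_max_image
    (Finset.univ.filter fun B : Finset ι => S ⊆ B ∧ AlgebraicIndependent ℂ (fun i : B => F i))
    Finset.card ⟨S, by simp [hS]⟩
  simp only [Finset.mem_filter, Finset.mem_univ, true_and] at hB hmax
  obtain ⟨hSB, hBi⟩ := hB
  refine ⟨B, hSB, hBi, fun k => ?_⟩
  set α : MvPolynomial B ℂ →ₐ[ℂ] A := aeval fun i : B => F i with hα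
  -- existence of a relation
  have hex : ∃ P : Polynomial (MvPolynomial B ℂ), P ≠ 0 ∧
      Polynomial.eval₂ α.toRingHom (F k) P = 0 := by
    by_cases hk : k ∈ B
    · refine ⟨Polynomial.X - Polynomial.C (X ⟨k, hk⟩), Polynomial.X_sub_C_ne_zero _, ?_⟩
      simp [hα]
    · have h1 : ¬ AlgebraicIndependent ℂ (fun o : Option B => o.elim (F k) fun i : B => F i) := by
        intro h
        have h2 : AlgebraicIndependent ℂ (fun i : (insert k B : Finset ι) => F i) := by
          let g : {x // x ∈ insert k B} → Option B := fun i =>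
            if h : (i : ι) ∈ B then some ⟨i, h⟩ else none
          have hg : Function.Injective g := by
            rintro ⟨i, hi⟩ ⟨j, hj⟩ hij
            simp only [g] at hij
            rw [Finset.mem_insert] at hi hj
            by_cases h1 : i ∈ B
            · by_cases h2 : j ∈ B
              · simp only [h1, h2, dite_true, Option.some.injEq, Subtype.mk.injEq] at hij
                exact Subtype.ext hij
              · simp [h1, h2] at hij
            · by_cases h2 : j ∈ B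
              · simp [h1, h2] at hij
              · have e1 := hi.resolve_right h1
                have e2 := hj.resolve_right h2
                exact Subtype.ext (e1.trans e2.symm)
          have h3 := h.comp g hg
          have h4 : ((fun o : Option B => o.elim (F k) fun i : B => F i) ∘ g) =
              fun i : (insert k B : Finset ι) => F i := by
            funext i
            obtain ⟨i, hi⟩ := i
            simp only [Function.comp, g]
            by_cases h1 : i ∈ B
            · simp [h1]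
            · rw [Finset.mem_insert] at hi
              rw [dif_neg h1]
              exact congrArg F (hi.resolve_right h1).symm
          rwa [h4] at h3
        have h3 := hmax (insert k B) ⟨hSB.trans (Finset.subset_insert _ _), h2⟩
        rw [Finset.card_insert_of_notMem hk] at h3
        omega
      rw [AlgebraicIndependent.option_iff_transcendental hBi] at h1
      unfold Transcendental at h1
      rw [not_not] at h1
      obtain ⟨P, hP, hP0⟩ := h1
      -- lift the coefficients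
      let β : MvPolynomial B ℂ →+* Algebra.adjoin ℂ (Set.range fun i : B => F i) :=
        (α.codRestrict (Algebra.adjoin ℂ (Set.range fun i : B => F i)) (fun x => by
          rw [Algebra.adjoin_range_eq_range_aeval]
          exact ⟨x, rfl⟩)).toRingHom
      have hβ : Function.Surjective β := by
        rintro ⟨x, hx⟩
        have hx' := hx
        rw [Algebra.adjoin_range_eq_range_aeval] at hx'
        obtain ⟨y, hy⟩ := hx'
        exact ⟨y, Subtype.ext hy⟩
      obtain ⟨Q, hQ⟩ := Polynomial.map_surjective β hβ P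
      refine ⟨Q, fun h => hP (by rw [← hQ, h, Polynomial.map_zero]), ?_⟩
      rw [← hQ, Polynomial.aeval_def, Polynomial.eval₂_map] at hP0
      exact hP0
  -- the one of minimal degree
  have hex' : ∃ n, ∃ P : Polynomial (MvPolynomial B ℂ), P.natDegree = n ∧ P ≠ 0 ∧
      Polynomial.eval₂ α.toRingHom (F k) P = 0 := by
    obtain ⟨P, h1, h2⟩ := hex
    exact ⟨_, P, rfl, h1, h2⟩
  obtain ⟨P, hPn, hP, hP0⟩ := Nat.find_spec hex'
  refine ⟨P, hP, hP0, fun hd => ?_⟩
  by_cases hdeg : P.natDegree = 0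
  · obtain ⟨p, rfl⟩ := Polynomial.natDegree_eq_zero.1 hdeg
    rw [Polynomial.eval₂_C] at hP0
    apply hP
    have := hBi.eq_zero_of_aeval_eq_zero p hP0
    rw [this, map_zero]
  · have h1 : P.derivative ≠ 0 := by
      intro h
      exact hdeg (Polynomial.derivative_eq_zero.1 h)
    have h2 := Nat.find_min' hex' ⟨P.derivative, rfl, h1, hd⟩
    rw [← hPn] at h2
    exact absurd (Polynomial.natDegree_derivative_lt hdeg) (not_lt.2 h2)

/-- evaluation of a polynomial with coefficients in `MvPolynomial B ℂ` -/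
noncomputable def ev2 {B : Type*} (P : Polynomial (MvPolynomial B ℂ)) (x : B → ℂ) (y : ℂ) : ℂ :=
  Polynomial.eval₂ (eval x) y P

theorem evA_eval₂ {U : Set E} {B : Type*} (F : B → An U) (G : An U)
    (P : Polynomial (MvPolynomial B ℂ)) (u : U) :
    evA u (Polynomial.eval₂ (aeval F : MvPolynomial B ℂ →ₐ[ℂ] An U).toRingHom G P) =
      ev2 P (fun i => evA u (F i)) (evA u G) := by
  have h := Polynomial.hom_eval₂ P (aeval F : MvPolynomial B ℂ →ₐ[ℂ] An U).toRingHom
    (evA u : An U →ₐ[ℂ] ℂ).toRingHom G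
  have h2 : (evA u : An U →ₐ[ℂ] ℂ).toRingHom.comp
      (aeval F : MvPolynomial B ℂ →ₐ[ℂ] An U).toRingHom = eval (fun i => evA u (F i)) := by
    apply RingHom.ext
    intro p
    exact evA_aeval F p u
  rw [h2] at h
  exact h

theorem analyticAt_eval {B : Type*} [Fintype B] {G : Type*} [NormedAddCommGroup G]
    [NormedSpace ℂ G] (p : MvPolynomial B ℂ) {x : B → G → ℂ} {q : G}
    (hx : ∀ i, AnalyticAt ℂ (x i) q) : AnalyticAt ℂ (fun z => eval (fun i => x i z) p) q := by
  induction p using MvPolynomial.induction_on with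
  | C a => simpa using analyticAt_const
  | add p q hp hq =>
    have h := hp.fun_add hq
    simpa only [map_add] using h
  | mul_X p i hp =>
    have h := hp.fun_mul (hx i)
    simpa only [map_mul, eval_X] using h

theorem analyticAt_ev2 {B : Type*} [Fintype B] {G : Type*} [NormedAddCommGroup G]
    [NormedSpace ℂ G] (P : Polynomial (MvPolynomial B ℂ)) {x : B → G → ℂ} {y : G → ℂ} {q : G}
    (hx : ∀ i, AnalyticAt ℂ (x i) q) (hy : AnalyticAt ℂ y q) :
    AnalyticAt ℂ (fun z => ev2 P (fun i => x i z) (y z)) q := by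
  unfold ev2
  simp only [Polynomial.eval₂_eq_sum_range]
  exact Finset.analyticAt_fun_sum _ fun n _ => (analyticAt_eval _ hx).mul (hy.pow n)

theorem hasDerivAt_ev2 {B : Type*} (P : Polynomial (MvPolynomial B ℂ)) (x : B → ℂ) (y : ℂ) :
    HasDerivAt (fun y => ev2 P x y) (ev2 P.derivative x y) y := by
  unfold ev2
  have h := (P.map (eval x)).hasDerivAt y
  rw [Polynomial.derivative_map, Polynomial.eval_map] at h
  simpa only [Polynomial.eval_map] using h

/-- the implicit function -/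
theorem exists_root {B : Type*} [Fintype B] (P : Polynomial (MvPolynomial B ℂ)) (x₀ : B → ℂ)
    (y₀ : ℂ) (h0 : ev2 P x₀ y₀ = 0) (h1 : ev2 P.derivative x₀ y₀ ≠ 0) :
    ∃ φ : (B → ℂ) → ℂ, AnalyticAt ℂ φ x₀ ∧ φ x₀ = y₀ ∧ (∀ᶠ x in 𝓝 x₀, ev2 P x (φ x) = 0) ∧
      ∀ᶠ q : (B → ℂ) × ℂ in 𝓝 (x₀, y₀), ev2 P q.1 q.2 = 0 → q.2 = φ q.1 := by
  set G : (B → ℂ) × ℂ → ℂ := fun q => ev2 P q.1 q.2 with hG
  have hpr : ∀ i : B, AnalyticAt ℂ (fun q : (B → ℂ) × ℂ => q.1 i) (x₀, y₀) := fun i =>
    ((ContinuousLinearMap.proj (R := ℂ) (φ := fun _ : B => ℂ) i).comp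
      (ContinuousLinearMap.fst ℂ (B → ℂ) ℂ)).analyticAt _
  have hsn : AnalyticAt ℂ (fun q : (B → ℂ) × ℂ => q.2) (x₀, y₀) := analyticAt_snd
  have hGa : AnalyticAt ℂ G (x₀, y₀) := analyticAt_ev2 P hpr hsn
  have hcd : ContDiffAt ℂ ⊤ G (x₀, y₀) := hGa.contDiffAt
  have hfd : ∀ v, (fderiv ℂ G (x₀, y₀) ∘L .inr ℂ (B → ℂ) ℂ) v = v * ev2 P.derivative x₀ y₀ := by
    intro v
    have a1 : HasFDerivAt G (fderiv ℂ G (x₀, y₀)) (x₀, y₀) := hGa.differentiableAt.hasFDerivAt
    have a2 : HasFDerivAt (fun y : ℂ => (x₀, y)) (ContinuousLinearMap.inr ℂ (B → ℂ) ℂ) y₀ :=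
      hasFDerivAt_prodMk_right x₀ y₀
    have a3 := (HasFDerivAt.comp y₀ a1 a2).hasDerivAt
    have a4 := a3.unique (hasDerivAt_ev2 P x₀ y₀)
    have a5 : (fderiv ℂ G (x₀, y₀) ∘L .inr ℂ (B → ℂ) ℂ) v =
        v • (fderiv ℂ G (x₀, y₀) ∘L .inr ℂ (B → ℂ) ℂ) 1 := by
      rw [← map_smul, smul_eq_mul, mul_one]
    rw [a5, a4, smul_eq_mul]
  have hinv : (fderiv ℂ G (x₀, y₀) ∘L .inr ℂ (B → ℂ) ℂ).IsInvertible := by
    refine ⟨ContinuousLinearEquiv.unitsEquivAut ℂ (Units.mk0 _ h1), ?_⟩
    ext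
    rw [hfd]
    simp
  have hn : (⊤ : WithTop ℕ∞) ≠ 0 := by simp
  refine ⟨hcd.implicitFunction hn hinv, ?_, ?_, ?_, ?_⟩
  · exact (hcd.contDiffAt_implicitFunction hn hinv).analyticAt
  · exact hcd.implicitFunction_apply_self hn hinv
  · filter_upwards [hcd.eventually_apply_implicitFunction hn hinv] with x hx
    exact hx.trans h0
  · filter_upwards [hcd.eventually_apply_eq_iff_implicitFunction hn hinv] with q hq h
    exact (hq.1 (h.trans h0.symm)).symm

/-- coordinates as elements of `An` -/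
theorem analyticOnNhd_coord {B : Type*} [Fintype B] (i : B) (s : Set (B → ℂ)) :
    AnalyticOnNhd ℂ (fun x : B → ℂ => x i) s := fun _ _ =>
  (ContinuousLinearMap.proj (R := ℂ) (φ := fun _ : B => ℂ) i).analyticAt _

/-- Analytic functions on a ball which are algebraic over the coordinates: if a polynomial in them
vanishes on an algebraically generic set of points, it vanishes identically. -/
theorem eq_zero_of_algebraic {B ι : Type*} [Fintype B] {x₀ : B → ℂ} {ρ : ℝ} (hρ : 0 < ρ)
    {φ : ι → (B → ℂ) → ℂ} (hφ : ∀ k, AnalyticOnNhd ℂ (φ k) (ball x₀ ρ))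
    (hP : ∀ k, ∃ P : Polynomial (MvPolynomial B ℂ), P ≠ 0 ∧ ∀ x ∈ ball x₀ ρ, ev2 P x (φ k x) = 0)
    (Q : MvPolynomial ι ℂ) {x₁ : B → ℂ} (hx₁ : x₁ ∈ ball x₀ ρ)
    (hQ : eval (fun i => φ i x₁) Q ≠ 0) :
    ∃ r : MvPolynomial B ℂ, r ≠ 0 ∧ ∃ g : (B → ℂ) → ℂ, ∀ x ∈ ball x₀ ρ,
      eval x r = eval (fun i => φ i x) Q * g x := by
  classical
  have hD : IsDomain (An (ball x₀ ρ)) :=
    An.isDomain isOpen_ball (convex_ball _ _).isPreconnected ⟨x₀, mem_ball_self hρ⟩
  set α : MvPolynomial B ℂ →ₐ[ℂ] An (ball x₀ ρ) :=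
    aeval fun i : B => toAn (fun x : B → ℂ => x i) (analyticOnNhd_coord i _) with hα
  let _ : Algebra (MvPolynomial B ℂ) (An (ball x₀ ρ)) := α.toRingHom.toAlgebra
  have hmap : ∀ r : MvPolynomial B ℂ, algebraMap (MvPolynomial B ℂ) (An (ball x₀ ρ)) r = α r :=
    fun _ => rfl
  have hev : ∀ (r : MvPolynomial B ℂ) (x : ball x₀ ρ), evA x (α r) = eval (x : B → ℂ) r :=
    fun r x => evA_aeval _ r x
  have halg : ∀ k, IsAlgebraic (MvPolynomial B ℂ) (toAn (φ k) (hφ k)) := by
    intro k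
    obtain ⟨P, hP0, hPk⟩ := hP k
    refine ⟨P, hP0, An.ext' fun u => ?_⟩
    rw [Polynomial.aeval_def, map_zero]
    have h := evA_eval₂ (fun i : B => toAn (fun x : B → ℂ => x i) (analyticOnNhd_coord i _))
      (toAn (φ k) (hφ k)) P u
    exact h.trans (hPk u u.2)
  have hQalg : ∀ Q : MvPolynomial ι ℂ, IsAlgebraic (MvPolynomial B ℂ)
      (aeval (fun k => toAn (φ k) (hφ k)) Q : An (ball x₀ ρ)) := by
    intro Q
    induction Q using MvPolynomial.induction_on with
    | C a =>
      have h : (aeval (fun k => toAn (φ k) (hφ k)) (C a : MvPolynomial ι ℂ) : An (ball x₀ ρ)) =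
          algebraMap (MvPolynomial B ℂ) (An (ball x₀ ρ)) (C a) := by
        rw [hmap, aeval_C, hα, aeval_C]
      rw [h]
      exact isAlgebraic_algebraMap _
    | add p q hp hq =>
      rw [map_add]
      exact hp.add hq
    | mul_X p i hp =>
      rw [map_mul, aeval_X]
      exact hp.mul (halg i)
  set q : An (ball x₀ ρ) := aeval (fun k => toAn (φ k) (hφ k)) Q with hq
  have hqe : ∀ x : ball x₀ ρ, evA x q = eval (fun k => φ k x) Q := fun x => evA_aeval _ Q x
  have hq0 : q ≠ 0 := by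
    intro h
    apply hQ
    have h1 := hqe ⟨x₁, hx₁⟩
    rw [h, map_zero] at h1
    exact h1.symm
  obtain ⟨r, hr, g, hg⟩ := (hQalg Q).exists_nonzero_dvd (mem_nonZeroDivisors_of_ne_zero hq0)
  refine ⟨r, hr, fun x => if h : x ∈ ball x₀ ρ then evA ⟨x, h⟩ g else 0, fun x hx => ?_⟩
  beta_reduce
  rw [dif_pos hx]
  have h1 := congrArg (evA ⟨x, hx⟩) hg
  rw [hmap, hev, map_mul, ← hq, hqe] at h1
  exact h1

/-- **The patch.** -/
theorem patch {U V : Set E} (hU : IsOpen U) (hc : IsPreconnected U) {ι : Type*} [Fintype ι]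
    {f : ι → E → ℂ} (hf : ∀ i, AnalyticOnNhd ℂ (f i) U) {S : Finset ι}
    (hS : Ind U fun i : S => f i) (hV : IsOpen V) (hVU : V ⊆ U) (hVne : V.Nonempty)
    {bad : E → ℂ} (hbad : AnalyticOnNhd ℂ bad U) (hb : ∃ u ∈ U, bad u ≠ 0) :
    ∃ B : Finset ι, S ⊆ B ∧ Ind U (fun i : B => f i) ∧ ∃ u₀ ∈ V, bad u₀ ≠ 0 ∧
      ∃ (ρ : ℝ) (φ : ι → (B → ℂ) → ℂ), 0 < ρ ∧
        (∀ k, AnalyticOnNhd ℂ (φ k) (ball (fun i : B => f i u₀) ρ)) ∧
        (∀ (k : B) x, φ k x = x k) ∧
        (∀ᶠ u in 𝓝 u₀, ∀ k, f k u = φ k fun i => f i u) ∧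
        ∀ Q : MvPolynomial ι ℂ, (∀ᶠ u in 𝓝 u₀, eval (fun i => f i u) Q = 0) →
          ∀ x ∈ ball (fun i : B => f i u₀) ρ, eval (fun i => φ i x) Q = 0 := by
  classical
  have hUne : U.Nonempty := hVne.mono hVU
  have hD : IsDomain (An U) := An.isDomain hU hc hUne
  set F : ι → An U := fun i => toAn (f i) (hf i) with hF
  obtain ⟨B, hSB, hB, hP⟩ := exists_basis F S ((ind_iff fun i : S => hf i).1 hS)
  choose P hP0 hPe hPd using hP
  set α : MvPolynomial B ℂ →+* An U :=
    (aeval fun i : B => F i : MvPolynomial B ℂ →ₐ[ℂ] An U).toRingHom with hα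
  have hBI : Ind U (fun i : B => f i) := (ind_iff fun i : B => hf i).2 hB
  -- the generic point
  obtain ⟨b, hbU, hb0⟩ := hb
  set Δ : An U := toAn bad hbad * ∏ k, Polynomial.eval₂ α (F k) (P k).derivative with hΔ
  have hΔ0 : Δ ≠ 0 := by
    refine mul_ne_zero ?_ (Finset.prod_ne_zero_iff.2 fun k _ => hPd k)
    intro h
    apply hb0
    have := congrArg (evA ⟨b, hbU⟩) h
    rw [evA_toAn, map_zero] at this
    exact this
  obtain ⟨u₀, hu₀V, hu₀⟩ : ∃ u₀, ∃ h : u₀ ∈ V, evA ⟨u₀, hVU h⟩ Δ ≠ 0 := by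
    by_contra hcon
    push Not at hcon
    obtain ⟨v, hv⟩ := hVne
    apply hΔ0
    refine An.eq_zero hc (hVU hv) ?_ hU
    filter_upwards [hV.mem_nhds hv] with w hw hw'
    exact hcon w hw
  have hu₀U : u₀ ∈ U := hVU hu₀V
  rw [hΔ, map_mul, map_prod, evA_toAn] at hu₀
  have hbad0 : bad u₀ ≠ 0 := left_ne_zero_of_mul hu₀
  have hder : ∀ k, ev2 (P k).derivative (fun i : B => f i u₀) (f k u₀) ≠ 0 := by
    intro k
    have h1 := Finset.prod_ne_zero_iff.1 (right_ne_zero_of_mul hu₀) k (Finset.mem_univ k)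
    have h2 := evA_eval₂ (fun i : B => F i) (F k) (P k).derivative ⟨u₀, hu₀U⟩
    intro h3
    exact h1 (h2.trans h3)
  have hrel : ∀ k, ∀ u ∈ U, ev2 (P k) (fun i : B => f i u) (f k u) = 0 := by
    intro k u hu
    have h1 := congrArg (evA ⟨u, hu⟩) (hPe k)
    rw [map_zero] at h1
    exact (evA_eval₂ (fun i : B => F i) (F k) (P k) ⟨u, hu⟩).symm.trans h1
  set x₀ : B → ℂ := fun i => f i u₀ with hx₀
  choose ψ ψa ψ0 ψr ψu using fun k => exists_root (P k) x₀ (f k u₀) (hrel k u₀ hu₀U) (hder k)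
  have hball : ∀ᶠ x in 𝓝 x₀, (∀ k, AnalyticAt ℂ (ψ k) x) ∧ ∀ k, ev2 (P k) x (ψ k x) = 0 :=
    (eventually_all.2 fun k => (ψa k).eventually_analyticAt).and (eventually_all.2 ψr)
  obtain ⟨ρ, hρ, hball⟩ := Metric.eventually_nhds_iff_ball.1 hball
  set φ : ι → (B → ℂ) → ℂ := fun k x => if h : k ∈ B then x ⟨k, h⟩ else ψ k x with hφ
  have hφB : ∀ (k : B) x, φ k x = x k := by
    intro k x
    simp only [hφ]
    rw [dif_pos k.2]
  have hφN : ∀ k, k ∉ B → φ k = ψ k := by
    intro k hk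
    funext x
    simp only [hφ]
    rw [dif_neg hk]
  have hφa : ∀ k, AnalyticOnNhd ℂ (φ k) (ball x₀ ρ) := by
    intro k
    by_cases hk : k ∈ B
    · have h1 : φ k = fun x => x ⟨k, hk⟩ := funext fun x => hφB ⟨k, hk⟩ x
      rw [h1]
      exact analyticOnNhd_coord _ _
    · rw [hφN k hk]
      exact fun x hx => (hball x hx).1 k
  -- the functions `f` on the patch
  have hcB : Tendsto (fun u => fun i : B => f i u) (𝓝 u₀) (𝓝 x₀) :=
    tendsto_pi_nhds.2 fun i => (hf i u₀ hu₀U).continuousAt.tendsto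
  have hfφ : ∀ᶠ u in 𝓝 u₀, ∀ k, f k u = φ k fun i => f i u := by
    rw [eventually_all]
    intro k
    by_cases hk : k ∈ B
    · exact Eventually.of_forall fun u => (hφB ⟨k, hk⟩ fun i : B => f i u).symm
    · rw [hφN k hk]
      have h1 : Tendsto (fun u => ((fun i : B => f i u), f k u)) (𝓝 u₀) (𝓝 (x₀, f k u₀)) :=
        hcB.prodMk_nhds (hf k u₀ hu₀U).continuousAt.tendsto
      filter_upwards [h1.eventually (ψu k), hU.mem_nhds hu₀U] with u k1 k2
      exact k1 (hrel k u k2)
  refine ⟨B, hSB, hBI, u₀, hu₀V, hbad0, ρ, φ, hρ, hφa, hφB, hfφ, ?_⟩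
  intro Q hQ x₁ hx₁
  by_contra hne
  obtain ⟨r, hr, g, hg⟩ := eq_zero_of_algebraic hρ hφa (fun k => by
    by_cases hk : k ∈ B
    · refine ⟨Polynomial.X - Polynomial.C (X ⟨k, hk⟩), Polynomial.X_sub_C_ne_zero _, ?_⟩
      intro x _
      unfold ev2
      simp [hφB ⟨k, hk⟩ x]
    · refine ⟨P k, hP0 k, fun x hx => ?_⟩
      rw [hφN k hk]
      exact (hball x hx).2 k) Q hx₁ hne
  apply hr
  have h1 : (aeval (fun i : B => F i) r : An U) = 0 := by
    refine An.eq_zero hc hu₀U ?_ hU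
    filter_upwards [hcB.eventually (ball_mem_nhds x₀ hρ), hQ, hfφ] with u k1 k2 k3 hu
    have h2 := hg _ k1
    rw [evA_aeval]
    change eval (fun i : B => f i u) r = 0
    rw [h2]
    have h3 : (fun i => φ i fun i : B => f i u) = fun i => f i u := funext fun i => (k3 i).symm
    rw [h3, k2, zero_mul]
  exact (algebraicIndependent_iff.1 hB) r h1

end Vale.Agent.P097.H365
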